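import Vale.Agent.P192.R2.H360.R.Defs2

set_option linter.all false

/-! Machines over a group: the displacement of the head is bounded. -/

namespace Vale.Agent.P192.R2.H909

open Vale.Agent.P192 Vale.Agent.P192.H437 Vale.Agent.P192.H593 Vale.Agent.P192.R2.H577
open Vale.Agent.P192.R2.H360.R
open scoped Pointwise

variable {H A Q : Type} [Group H] [DecidableEq H] {G : Type} [Group G] {S : Set G} {T : Finset H}
  [MulAction G (Cf H A Q)]

/-- displacement along a word -/
theorem disp (hM : MA (H := H) (A := A) (Q := Q) G S T) (w : List G)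
    (hw : ∀ s ∈ w, s ∈ S ∨ s⁻¹ ∈ S) (z : Cf H A Q) :
    z.2.1⁻¹ * (w.prod • z).2.1 ∈ T ^ w.length := by
  induction w with
  | nil => simp
  | cons s w ih =>
    have h1 := ih fun t ht => hw t (List.mem_cons_of_mem _ ht)
    have h2 := (hM.mach s (hw s List.mem_cons_self)).1 (w.prod • z)
    rw [List.prod_cons, mul_smul, List.length_cons, pow_succ]
    have h3 : z.2.1⁻¹ * (s • w.prod • z).2.1
        = z.2.1⁻¹ * (w.prod • z).2.1 * ((w.prod • z).2.1⁻¹ * (s • w.prod • z).2.1) := by group
    rw [h3]
    exact Finset.mul_mem_mul h1 h2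

/-- the windows along a word -/
def win (T : Finset H) (x : Cf H A Q) : List G → Finset H
  | [] => ∅
  | _ :: w => win T x w ∪ T.image fun τ => (w.prod • x).2.1 * τ

theorem win_card (x : Cf H A Q) (w : List G) : (win T x w).card ≤ w.length * T.card := by
  induction w with
  | nil => simp [win]
  | cons s w ih =>
    rw [win, List.length_cons, Nat.add_mul, Nat.one_mul]
    exact (Finset.card_union_le _ _).trans (Nat.add_le_add ih Finset.card_image_le)

/-- what happens along a word depends on the windows only -/
theorem transfer (hM : MA (H := H) (A := A) (Q := Q) G S T) (x x' : Cf H A Q) (K : Finset H)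
    (h2 : x'.2 = x.2) (hK : ∀ p ∈ K, x'.1 p = x.1 p) (w : List G)
    (hw : ∀ s ∈ w, s ∈ S ∨ s⁻¹ ∈ S) (hwK : win T x w ⊆ K) :
    (w.prod • x').2 = (w.prod • x).2 ∧ ∀ p ∈ K, (w.prod • x').1 p = (w.prod • x).1 p := by
  induction w with
  | nil => simpa using ⟨h2, hK⟩
  | cons s w ih =>
    rw [win] at hwK
    obtain ⟨e1, e2⟩ := ih (fun t ht => hw t (List.mem_cons_of_mem _ ht))
      (Finset.subset_union_left.trans hwK)
    obtain ⟨m1, m2, m3⟩ := hM.mach s (hw s List.mem_cons_self)
    rw [List.prod_cons, mul_smul, mul_smul]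
    set z := w.prod • x with hz
    set z' := w.prod • x' with hz'
    have hh : z'.2.1 = z.2.1 := by rw [e1]
    have hwin : ∀ τ ∈ T, z'.1 (z'.2.1 * τ) = z.1 (z.2.1 * τ) := fun τ hτ => by
      rw [hh]
      exact e2 _ (hwK (Finset.mem_union_right _ (Finset.mem_image_of_mem _ hτ)))
    obtain ⟨a1, a2, a3⟩ := m3 z' z (by rw [e1]) hwin
    have b1 : (s • z').2.1 = (s • z).2.1 := by
      rw [hh] at a1
      exact mul_left_cancel a1
    refine ⟨Prod.ext b1 a2, fun p hp => ?_⟩
    by_cases h : z.2.1⁻¹ * p ∈ T
    · have := a3 _ h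
      rw [hh, mul_inv_cancel_left] at this
      exact this
    · have c1 : (s • z).1 p = z.1 p := by
        by_contra hc
        exact h (m2 z p hc)
      have c2 : (s • z').1 p = z'.1 p := by
        by_contra hc
        have := m2 z' p hc
        rw [hh] at this
        exact h this
      rw [c1, c2]
      exact e2 p hp

theorem hop_coe {X : Type} [MulAction G X] {x0 : X} {n : ℕ} {x y : MulAction.orbit G x0}
    (h : hop S n x y) : hop S n (x : X) (y : X) := by
  obtain ⟨w, h1, h2, h3⟩ := h
  exact ⟨w, h1, h2, by rw [← h3]; rfl⟩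

/-- in a transitive action on at most `m` points, one gets everywhere in `m` steps -/
theorem hop_card {X : Type} [MulAction G X] [MulAction.IsPretransitive G X]
    (hS : Subgroup.closure S = ⊤) {m : ℕ} (hm : (Set.univ : Set X).encard ≤ m) (x y : X) :
    hop S m x y := by
  classical
  have : Nonempty X := ⟨x⟩
  have hf : (Set.univ : Set X).Finite := by
    rw [← Set.encard_lt_top_iff]
    exact lt_of_le_of_lt hm (ENat.coe_lt_top m)
  have hfin : Finite X := Set.finite_univ_iff.1 hf
  have := Fintype.ofFinite X
  have hc := sch_connected (X := X) hS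
  obtain ⟨p, hp⟩ := (hc.preconnected x y).exists_isPath
  have h1 := hp.length_lt
  have h2 : Fintype.card X ≤ m := by
    rw [Set.encard_univ, ENat.card_eq_coe_fintype_card] at hm
    exact_mod_cast hm
  exact hop_le (by omega) (hop_of_walk p)

theorem r9 : R9 := by
  intro h5 h8 H _ _ hH A Q _ _ _ G _ _ hG S T _ hM
  classical
  obtain ⟨R, m, h8⟩ := h8 H hH A Q (Classical.arbitrary A) G hG S T hM
  set a0 : A := Classical.arbitrary A with ha0
  set C : ℕ := 2 * (T.card * (T ^ R).card) with hC
  obtain ⟨n0, h5⟩ := h5 G hG S hM.fin hM.gen H A Q T C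
  set n : ℕ := max m (n0 + 1) with hn
  have key : ∀ N : ℕ, ∀ (x : Cf H A Q) (w : List G), (∀ s ∈ w, s ∈ S ∨ s⁻¹ ∈ S) → w.length = N →
      x.2.1⁻¹ * (w.prod • x).2.1 ∈ T ^ n := by
    intro N
    induction N using Nat.strong_induction_on with
    | _ N ih =>
      intro x w hw hwN
      rcases Nat.lt_or_ge n N with hN | hN
      swap
      · have h1 := disp hM w hw x
        rw [hwN] at h1
        exact Finset.pow_subset_pow_right hM.one hN h1
      by_contra hd
      set K := win T x w with hK
      set x' : Cf H A Q := (fun p => if p ∈ K then x.1 p else a0, x.2) with hx'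
      obtain ⟨e1, -⟩ := transfer hM x x' K rfl (fun p hp => by simp [hx', hp]) w hw subset_rfl
      have hd' : x'.2.1⁻¹ * (w.prod • x').2.1 ∉ T ^ n := by
        rw [e1]
        exact hd
      have hnh : ¬ hop S (N - 1) x' (w.prod • x') := by
        rintro ⟨w', h1, h2, h3⟩
        apply hd'
        rw [← h3]
        exact ih w'.length (by omega) x' w' h1 rfl
      let X := MulAction.orbit G x'
      let xo : X := ⟨x', MulAction.mem_orbit_self x'⟩
      let yo : X := ⟨w.prod • x', MulAction.mem_orbit x' w.prod⟩
      rcases h8 x' with h | h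
      · have h1 : hop S m xo yo := hop_card hM.gen (by
          rw [Set.encard_univ]
          exact h) xo yo
        exact hnh (hop_coe (hop_le (by omega) h1))
      · have hZ : ∀ z : X, z.1.2.1 ∈ K * T ^ R := fun z => by
          obtain ⟨k, h1, h2⟩ := h z.1 z.2
          have hk : k ∈ K := by
            by_contra hk
            apply h1
            simp [hx', hk]
          have := Finset.mul_mem_mul hk h2
          rwa [mul_inv_cancel_left] at this
        have hcard : (K * T ^ R).card ≤ C * (N - 1) := by
          have h1 : (K * T ^ R).card ≤ K.card * (T ^ R).card := Finset.card_mul_le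
          have h2 : K.card ≤ N * T.card := by
            rw [← hwN]
            exact win_card x w
          have h3 : K.card * (T ^ R).card ≤ N * T.card * (T ^ R).card :=
            Nat.mul_le_mul_right _ h2
          have h4 : N ≤ 2 * (N - 1) := by omega
          calc (K * T ^ R).card ≤ N * T.card * (T ^ R).card := h1.trans h3
            _ = N * (T.card * (T ^ R).card) := by ring
            _ ≤ 2 * (N - 1) * (T.card * (T ^ R).card) := Nat.mul_le_mul_right _ h4
            _ = C * (N - 1) := by rw [hC]; ring
        have hloc : Loc S T X (fun z => z.1.2.1) (fun z => z.1.1) (fun z => z.1.2.2) :=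
          { one := hM.one
            inv := hM.inv
            move := fun z s hs => (hM.mach s hs).1 z.1
            write := fun z s p hs hp => (hM.mach s hs).2.1 z.1 p hp
            inj := fun z z' h1 h2 h3 => Subtype.ext (Prod.ext h3 (Prod.ext h1 h2)) }
        have h6 := h5 X (fun z => z.1.2.1) (fun z => z.1.1) (fun z => z.1.2.2) hloc xo yo (N - 1)
          (K * T ^ R) hZ hcard (fun h7 => hnh (hop_coe h7))
        omega
  refine ⟨n, fun x y hy => ?_⟩
  obtain ⟨g, rfl⟩ := hy
  obtain ⟨w, hw, rfl⟩ := exists_list S hM.gen g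
  exact key w.length x w hw rfl

end Vale.Agent.P192.R2.H909
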